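import Vale.Agent.P133.R2.H307.Spec2
import Mathlib.Topology.PartitionOfUnity

/-! P133, general property C theorem, row E (helper117): continuous functions on a compact subset
with values in `herS a` extend to elements of the section algebra. -/

open scoped ComplexOrder

namespace Vale.Agent.P133.R2.H117

open Vale.Agent.P133.R2.H307 Vale.Agent.P133.H832 Filter Topology

universe u v

section
variable {A : Type u} [NonUnitalCStarAlgebra A]

theorem rsmul_eq (r : ℝ) (x : A) : r • x = (r : ℂ) • x := (Complex.coe_smul r x).symm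

theorem isClosed_herS (a : A) : IsClosed (herS a : Set A) := by
  have h1 : IsClosed {x : A | star x = x} := isClosed_eq continuous_star continuous_id
  have h2 : (herS a : Set A) =
      ((LinearMap.range ((LinearMap.mulLeft ℝ a).comp
        (LinearMap.mulRight ℝ a))).topologicalClosure : Set A) ∩ {x : A | star x = x} := by
    ext x
    simp only [herS, Submodule.coe_inf, Set.mem_inter_iff, SetLike.mem_coe, Set.mem_ofPred_eq]
    rfl
  rw [h2]
  exact (Submodule.isClosed_topologicalClosure _).inter h1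

theorem mem_herS_iff {a x : A} : x ∈ herS a ↔
    (∀ ε : ℝ, 0 < ε → ∃ y : A, ‖x - a * (y * a)‖ < ε) ∧ star x = x := by
  have h1 : x ∈ herS a ↔ x ∈ closure ((LinearMap.range ((LinearMap.mulLeft ℝ a).comp
        (LinearMap.mulRight ℝ a)) : Submodule ℝ A) : Set A) ∧ star x = x := by
    simp only [herS, Submodule.mem_inf]
    rfl
  rw [h1, Metric.mem_closure_iff]
  refine and_congr_left fun _ => ⟨fun h ε hε => ?_, fun h ε hε => ?_⟩
  · obtain ⟨b, hb, hd⟩ := h ε hε
    obtain ⟨y, rfl⟩ := hb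
    exact ⟨y, by rw [dist_eq_norm] at hd; exact hd⟩
  · obtain ⟨y, hy⟩ := h ε hε
    exact ⟨_, ⟨y, rfl⟩, by rw [dist_eq_norm]; exact hy⟩

variable {X : Type v} {B : X → Type u} [∀ t, NonUnitalCStarAlgebra (B t)]
  {π : ∀ t, A →⋆ₙₐ[ℂ] B t}

theorem eq_of_fibres (h2 : ∀ (a : A) (r : ℝ), 0 ≤ r → (∀ t, ‖π t a‖ ≤ r) → ‖a‖ ≤ r) {x y : A}
    (h : ∀ t, π t x = π t y) : x = y := by
  refine sub_eq_zero.1 (norm_le_zero_iff.1 (h2 _ 0 le_rfl fun t => ?_))
  rw [map_sub, h t, sub_self, norm_zero]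

theorem norm_pi_le (t : X) (x : A) : ‖π t x‖ ≤ ‖x‖ := NonUnitalStarAlgHom.norm_apply_le (π t) x

/-- `herS a` is a module over the functions -/
theorem herS_smul [TopologicalSpace X]
    (h2 : ∀ (a : A) (r : ℝ), 0 ≤ r → (∀ t, ‖π t a‖ ≤ r) → ‖a‖ ≤ r)
    (h4 : ∀ f : C(X, ℝ), (∀ t, 0 ≤ f t ∧ f t ≤ 1) → ∀ a : A, ∃ b : A, ∀ t,
      π t b = (f t : ℂ) • π t a) {a : A} {f : C(X, ℝ)} (hf : ∀ t, 0 ≤ f t ∧ f t ≤ 1)
    {d : A} (hd : d ∈ herS a) : ∃ b ∈ herS a, ∀ t, π t b = (f t : ℂ) • π t d := by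
  obtain ⟨b, hb⟩ := h4 f hf d
  rw [mem_herS_iff] at hd
  obtain ⟨hd1, hd2⟩ := hd
  refine ⟨b, mem_herS_iff.2 ⟨fun ε hε => ?_, ?_⟩, hb⟩
  · obtain ⟨y, hy⟩ := hd1 (ε / 2) (half_pos hε)
    obtain ⟨g, hg⟩ := h4 f hf y
    refine ⟨g, lt_of_le_of_lt (h2 _ (ε / 2) (half_pos hε).le fun t => ?_) (half_lt_self hε)⟩
    have e : π t (b - a * (g * a)) = (f t : ℂ) • π t (d - a * (y * a)) := by
      rw [map_sub, map_mul, map_mul, hb, hg, map_sub, map_mul, map_mul, smul_sub,
        smul_mul_assoc, mul_smul_comm]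
    rw [e, norm_smul]
    have h5 : ‖π t (d - a * (y * a))‖ ≤ ε / 2 := (norm_pi_le t _).trans hy.le
    have h6 : ‖((f t : ℝ) : ℂ)‖ ≤ 1 := by
      rw [Complex.norm_real, Real.norm_of_nonneg (hf t).1]
      exact (hf t).2
    calc ‖((f t : ℝ) : ℂ)‖ * ‖π t (d - a * (y * a))‖ ≤ 1 * (ε / 2) :=
          mul_le_mul h6 h5 (norm_nonneg _) zero_le_one
      _ = ε / 2 := one_mul _
  · refine eq_of_fibres h2 fun t => ?_
    rw [map_star, hb, star_smul, ← map_star, hd2]
    congr 1
    exact Complex.conj_ofReal _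

end

section
variable {X : Type v} [TopologicalSpace X] [LocallyCompactSpace X] [T2Space X]
  {B : X → Type u} [∀ t, NonUnitalCStarAlgebra (B t)] {A : Type u} [NonUnitalCStarAlgebra A]
  {π : ∀ t, A →⋆ₙₐ[ℂ] B t}

/-- one step of the approximation -/
theorem step (h2 : ∀ (a : A) (r : ℝ), 0 ≤ r → (∀ t, ‖π t a‖ ≤ r) → ‖a‖ ≤ r)
    (h4 : ∀ f : C(X, ℝ), (∀ t, 0 ≤ f t ∧ f t ≤ 1) → ∀ a : A, ∃ b : A, ∀ t,
      π t b = (f t : ℂ) • π t a) (a : A) {K : Set X} (hK : IsCompact K) (F : C(K, herS a))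
    {M : ℝ} (hM : 0 < M) (hF : ∀ t, ‖F t‖ ≤ M) :
    ∃ c ∈ herS a, ‖c‖ ≤ M ∧ ∃ F' : C(K, herS a), (∀ t, ‖F' t‖ ≤ M / 2) ∧
      ∀ t : K, π t (F t : A) = π t c + π t (F' t : A) := by
  classical
  have hKc : CompactSpace K := isCompact_iff_compactSpace.1 hK
  -- open sets
  have hVo : ∀ s : K, IsOpen {t : K | ‖F t - F s‖ < M / 2} := fun s =>
    isOpen_lt (by fun_prop) continuous_const
  choose U hUo hUV using fun s : K => isOpen_induced_iff.1 (hVo s)
  obtain ⟨T, hT⟩ := hK.elim_finite_subcover U hUo (fun t ht => Set.mem_iUnion.2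
    ⟨⟨t, ht⟩, by
      have h3 : (⟨t, ht⟩ : K) ∈ Subtype.val ⁻¹' U ⟨t, ht⟩ := by
        rw [hUV]
        simp only [Set.mem_ofPred_eq, sub_self, norm_zero]
        exact half_pos hM
      exact h3⟩)
  have hcov : K ⊆ ⋃ i : T, U i := by
    intro s hs
    obtain ⟨t, ht, hst⟩ := Set.mem_iUnion₂.1 (hT hs)
    exact Set.mem_iUnion.2 ⟨⟨t, ht⟩, hst⟩
  obtain ⟨f, hf, -⟩ := PartitionOfUnity.exists_isSubordinate_of_locallyFinite_t2space hK
    (fun i : T => U i) (fun i => hUo i) (locallyFinite_of_finite _) hcov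
  have hf01 : ∀ i t, 0 ≤ f i t ∧ f i t ≤ 1 := fun i t => ⟨f.nonneg i t, f.le_one i t⟩
  have hsum1 : ∀ t, ∑ i, f i t ≤ 1 := fun t => by
    rw [← finsum_eq_sum_of_fintype]
    exact f.sum_le_one t
  have hsumK : ∀ t ∈ K, ∑ i, f i t = 1 := fun t ht => by
    rw [← finsum_eq_sum_of_fintype]
    exact f.sum_eq_one ht
  choose c hcE hc using fun i : T => herS_smul h2 h4 (hf01 i) (F i.1).2
  refine ⟨∑ i, c i, (herS a).sum_mem fun i _ => hcE i, ?_,
    F - ∑ i, (⟨fun t : K => f i t, by fun_prop⟩ : C(K, ℝ)) • ContinuousMap.const K (F i.1), ?_, ?_⟩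
  · refine h2 _ M hM.le fun t => ?_
    rw [map_sum]
    calc ‖∑ i, π t (c i)‖ ≤ ∑ i, ‖π t (c i)‖ := norm_sum_le _ _
      _ ≤ ∑ i, f i t * M := by
          refine Finset.sum_le_sum fun i _ => ?_
          rw [hc, norm_smul, Complex.norm_real, Real.norm_of_nonneg (hf01 i t).1]
          exact mul_le_mul_of_nonneg_left ((norm_pi_le t _).trans (hF i.1)) (hf01 i t).1
      _ = (∑ i, f i t) * M := by rw [Finset.sum_mul]
      _ ≤ 1 * M := mul_le_mul_of_nonneg_right (hsum1 t) hM.le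
      _ = M := one_mul M
  · intro t
    have e : (F - ∑ i, (⟨fun t : K => f i t, by fun_prop⟩ : C(K, ℝ)) •
        ContinuousMap.const K (F i.1)) t = ∑ i, f i t • (F t - F i.1) := by
      simp only [ContinuousMap.sub_apply, ContinuousMap.coe_sum, Finset.sum_apply, smul_sub,
        Finset.sum_sub_distrib]
      rw [← Finset.sum_smul, hsumK t t.2, one_smul]
      rfl
    rw [e]
    calc ‖∑ i, f i t • (F t - F i.1)‖ ≤ ∑ i, ‖f i t • (F t - F i.1)‖ := norm_sum_le _ _
      _ ≤ ∑ i, f i t * (M / 2) := by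
          refine Finset.sum_le_sum fun i _ => ?_
          rw [norm_smul, Real.norm_of_nonneg (hf01 i t).1]
          rcases eq_or_lt_of_le (hf01 i t).1 with h0 | h0
          · rw [← h0, zero_mul, zero_mul]
          · have h7 : (t : X) ∈ U i.1 := hf i (subset_tsupport _ (ne_of_gt h0))
            have h8 : t ∈ Subtype.val ⁻¹' U i.1 := h7
            rw [hUV] at h8
            exact mul_le_mul_of_nonneg_left (le_of_lt h8) h0.le
      _ = M / 2 := by rw [← Finset.sum_mul, hsumK t t.2, one_mul]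
  · intro t
    have e : (((F - ∑ i, (⟨fun t : K => f i t, by fun_prop⟩ : C(K, ℝ)) •
        ContinuousMap.const K (F i.1)) t : herS a) : A) =
        (F t : A) - ∑ i, ((f i t : ℝ) : ℂ) • (F i.1 : A) := by
      simp only [ContinuousMap.sub_apply, ContinuousMap.coe_sum, Finset.sum_apply,
        Submodule.coe_sub, Submodule.coe_sum]
      congr 1
    rw [e, map_sum, map_sub, map_sum]
    simp only [hc, map_smul]
    abel

theorem specExt : SpecExt.{u, v} := by
  intro X _ _ _ B _ A _ π h1 h2 h3 h4 a K ha hK F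
  classical
  have hKc : CompactSpace K := isCompact_iff_compactSpace.1 hK
  set M : ℝ := ‖F‖ + 1 with hM
  have hM0 : 0 < M := by positivity
  have hF : ∀ t, ‖F t‖ ≤ M := fun t => (F.norm_coe_le_norm t).trans (by linarith)
  -- the recursion
  let St := {p : A × C(K, herS a) × ℝ // 0 < p.2.2 ∧ ∀ t, ‖p.2.1 t‖ ≤ p.2.2}
  choose c hcE hcM F' hF'M hF' using fun p : St => step h2 h4 a hK p.1.2.1 p.2.1 p.2.2
  let nx : St → St := fun p => ⟨(c p, F' p, p.1.2.2 / 2), half_pos p.2.1, hF'M p⟩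
  let s : ℕ → St := fun n => nx^[n] ⟨(0, F, M), hM0, hF⟩
  have hs : ∀ n, s (n + 1) = nx (s n) := fun n => Function.iterate_succ_apply' nx n _
  have hMn : ∀ n, (s n).1.2.2 = M * (1 / 2) ^ n := by
    intro n
    induction n with
    | zero =>
      rw [pow_zero, mul_one]
      rfl
    | succ n ih =>
      rw [hs]
      show (s n).1.2.2 / 2 = _
      rw [ih, pow_succ]; ring
  have hcn : ∀ n, ‖c (s n)‖ ≤ M * (1 / 2) ^ n := fun n => (hcM (s n)).trans_eq (hMn n)
  have hsm : Summable fun n => c (s n) :=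
    Summable.of_norm_bounded (summable_geometric_two.mul_left M) hcn
  have hpart : ∀ (t : K) (n : ℕ), π t (F t : A) =
      π t (∑ k ∈ Finset.range n, c (s k)) + π t ((s n).1.2.1 t : A) := by
    intro t n
    induction n with
    | zero =>
      rw [Finset.range_zero, Finset.sum_empty, map_zero, zero_add]
      rfl
    | succ n ih =>
      rw [ih, hF' (s n) t, Finset.sum_range_succ, map_add, hs]
      show _ = _ + π t (F' (s n) t : A)
      abel
  refine ⟨∑' n, c (s n), ?_, fun t => ?_⟩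
  · exact (isClosed_herS a).mem_of_tendsto hsm.hasSum.tendsto_sum_nat
      (Eventually.of_forall fun n => (herS a).sum_mem fun i _ => hcE _)
  · have hcont : Continuous (π t) :=
      AddMonoidHomClass.continuous_of_bound (π t) 1 fun x => by
        rw [one_mul]
        exact norm_pi_le _ x
    have ht1 : Tendsto (fun n => π t (∑ k ∈ Finset.range n, c (s k))) atTop
        (𝓝 (π t (∑' n, c (s n)))) := (hcont.tendsto _).comp hsm.hasSum.tendsto_sum_nat
    have ht2 : Tendsto (fun n => π t ((s n).1.2.1 t : A)) atTop (𝓝 0) := by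
      refine squeeze_zero_norm (fun n => ?_) (a := fun n => M * (1 / 2) ^ n) ?_
      · exact (norm_pi_le _ _).trans (((s n).2.2 t).trans_eq (hMn n))
      · have := (tendsto_pow_atTop_nhds_zero_of_lt_one (r := (1 / 2 : ℝ)) (by norm_num)
          (by norm_num)).const_mul M
        simpa using this
    have ht3 := ht1.add ht2
    rw [add_zero] at ht3
    have ht4 : Tendsto (fun _ : ℕ => π t (F t : A)) atTop (𝓝 (π t (∑' n, c (s n)))) :=
      ht3.congr fun n => (hpart t n).symm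
    exact tendsto_nhds_unique ht4 tendsto_const_nhds

end

end Vale.Agent.P133.R2.H117
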