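import Vale.Agent.P133.R2.H307.Spec
import Mathlib.Analysis.CStarAlgebra.ApproximateUnit
import Mathlib.Topology.PartitionOfUnity

/-! P133.PropertyC, row L (helper117): membership in a closed ideal is a local property. -/

namespace Vale.Agent.P133.R2.H117

open Vale.Agent.P133.R2.H307 Vale.Agent.P133.H832 Filter Topology

universe u v

theorem exists_approx_unit {A : Type u} [NonUnitalCStarAlgebra A] (p : A) {δ : ℝ} (hδ : 0 < δ) :
    ∃ e : A, ‖p - e * p‖ < δ := by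
  let _ : PartialOrder A := CStarAlgebra.spectralOrder A
  have _ : StarOrderedRing A := CStarAlgebra.spectralOrderedRing A
  have h := (CStarAlgebra.increasingApproximateUnit A).tendsto_mul_right p
  have hne := (CStarAlgebra.increasingApproximateUnit A).toIsApproximateUnit.neBot
  rw [Metric.tendsto_nhds] at h
  obtain ⟨e, he⟩ := (h δ hδ).exists
  refine ⟨e, ?_⟩
  rw [norm_sub_rev, ← dist_eq_norm]
  exact he

variable {X : Type v} [TopologicalSpace X] {B : X → Type u} [∀ t, NonUnitalCStarAlgebra (B t)]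
  {A : Type u} [NonUnitalCStarAlgebra A] {π : ∀ t, A →⋆ₙₐ[ℂ] B t}

/-- a closed ideal is a module over the functions -/
theorem mem_of_smul (hπ : IsField π) {P : Submodule ℂ A} (hP : IsClosedIdeal P)
    {f : C(X, ℝ)} (hf : ∀ t, 0 ≤ f t ∧ f t ≤ 1) {p b : A} (hp : p ∈ P)
    (hb : ∀ t, π t b = (f t : ℂ) • π t p) : b ∈ P := by
  obtain ⟨-, h2, -, h4⟩ := hπ
  suffices key : b ∈ closure (P : Set A) by rwa [hP.1.closure_eq] at key
  rw [Metric.mem_closure_iff]
  intro δ hδ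
  obtain ⟨e, he⟩ := exists_approx_unit p (half_pos hδ)
  obtain ⟨g, hg⟩ := h4 f hf e
  refine ⟨g * p, (hP.2 g p hp).1, ?_⟩
  rw [dist_eq_norm]
  refine lt_of_le_of_lt (h2 _ (δ / 2) (half_pos hδ).le fun t => ?_) (half_lt_self hδ)
  rw [map_sub, map_mul, hb, hg, smul_mul_assoc, ← smul_sub, ← map_mul, ← map_sub, norm_smul]
  have h5 : ‖π t (p - e * p)‖ ≤ ‖p - e * p‖ := NonUnitalStarAlgHom.norm_apply_le (π t) _
  have h6 : ‖((f t : ℝ) : ℂ)‖ ≤ 1 := by
    rw [Complex.norm_real, Real.norm_of_nonneg (hf t).1]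
    exact (hf t).2
  calc ‖((f t : ℝ) : ℂ)‖ * ‖π t (p - e * p)‖ ≤ 1 * ‖p - e * p‖ :=
        mul_le_mul h6 h5 (norm_nonneg _) zero_le_one
    _ ≤ δ / 2 := by rw [one_mul]; exact he.le

theorem specLoc : SpecLoc.{u, v} := by
  intro X _ _ _ B _ A _ π hπ P hP c hc
  classical
  suffices key : c ∈ closure (P : Set A) by rwa [hP.1.closure_eq] at key
  rw [Metric.mem_closure_iff]
  intro ε hε
  choose p hpP hpc using fun t => hc t (ε / 2) (half_pos hε)
  obtain ⟨h1, h2, h3, h4⟩ := hπ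
  set U : X → Set X := fun t => {s | ‖π s (c - p t)‖ < ε / 2} with hU
  have hUo : ∀ t, IsOpen (U t) := fun t => isOpen_lt (h3 _) continuous_const
  obtain ⟨F, hF⟩ := isCompact_univ.elim_finite_subcover U hUo
    (fun t _ => Set.mem_iUnion.2 ⟨t, hpc t⟩)
  have hcov : (Set.univ : Set X) ⊆ ⋃ i : F, U i := by
    intro s hs
    obtain ⟨t, ht, hst⟩ := Set.mem_iUnion₂.1 (hF hs)
    exact Set.mem_iUnion.2 ⟨⟨t, ht⟩, hst⟩
  obtain ⟨f, hf⟩ := PartitionOfUnity.exists_isSubordinate_of_locallyFinite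
    (isClosed_univ : IsClosed (Set.univ : Set X)) (fun i : F => U i) (fun i => hUo i)
    (locallyFinite_of_finite _) hcov
  have hf01 : ∀ i t, 0 ≤ f i t ∧ f i t ≤ 1 := fun i t => ⟨f.nonneg i t, f.le_one i t⟩
  choose b hb using fun i : F => h4 (f i) (hf01 i) (p i)
  have hbP : ∀ i, b i ∈ P := fun i =>
    mem_of_smul (π := π) ⟨h1, h2, h3, h4⟩ hP (hf01 i) (hpP i) (hb i)
  refine ⟨∑ i, b i, P.sum_mem fun i _ => hbP i, ?_⟩
  rw [dist_eq_norm]
  refine lt_of_le_of_lt (h2 _ (ε / 2) (half_pos hε).le fun t => ?_) (half_lt_self hε)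
  have hsum : ∑ i, f i t = 1 := by
    rw [← finsum_eq_sum_of_fintype]
    exact f.sum_eq_one (Set.mem_univ t)
  have hsumC : ∑ i, ((f i t : ℝ) : ℂ) = 1 := by
    rw [← Complex.ofReal_sum, hsum, Complex.ofReal_one]
  have e : π t (c - ∑ i, b i) = ∑ i, ((f i t : ℝ) : ℂ) • π t (c - p i) := by
    rw [map_sub, map_sum]
    simp only [map_sub, smul_sub, Finset.sum_sub_distrib, hb]
    rw [← Finset.sum_smul, hsumC, one_smul]
  rw [e]
  calc ‖∑ i, ((f i t : ℝ) : ℂ) • π t (c - p i)‖ ≤ ∑ i, ‖((f i t : ℝ) : ℂ) • π t (c - p i)‖ :=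
        norm_sum_le _ _
    _ ≤ ∑ i, f i t * (ε / 2) := by
        refine Finset.sum_le_sum fun i _ => ?_
        rw [norm_smul, Complex.norm_real, Real.norm_of_nonneg (hf01 i t).1]
        rcases eq_or_lt_of_le (hf01 i t).1 with h0 | h0
        · rw [← h0, zero_mul, zero_mul]
        · have : t ∈ U i := hf i (subset_tsupport _ (ne_of_gt h0))
          exact mul_le_mul_of_nonneg_left (le_of_lt this) h0.le
    _ = ε / 2 := by rw [← Finset.sum_mul, hsum, one_mul]

end Vale.Agent.P133.R2.H117
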